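import Vale.Agent.P359.Plain

namespace Vale.Agent.Results.P359.OperatorGap

open LaughlinModel

/-- There are `δ > 0` and `N₀` such that for all `N ≥ N₀`, at the Laughlin flux `Q = 3 (N - 1)`, the
operator inequality `H_{N,Q} ≥ δ (I - P_L)` holds on the fermionic space, where `P_L` is the
orthogonal projection onto the line spanned by the Laughlin vector `Ψ`.  Here `P` is the orthogonal
projection of `U_Q ⊗ U_Q` onto the component of total spin `Q - 1` (it exists). -/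
theorem result : ∃ δ : ℝ, 0 < δ ∧ ∃ N₀ : ℕ, ∀ N Q : ℕ, N₀ ≤ N → Q = 3 * (N - 1) →
    (∃ P, IsSpinProjection Q P) ∧
    ∀ P, IsSpinProjection Q P →
      ∃ Ψ : (Fin N → Fin (Q + 1)) → ℂ,
        IsFermionic Ψ ∧ IsLaughlin Ψ ∧ (∃ x, Ψ x ≠ 0) ∧ (∀ x, hamiltonian P Ψ x = 0) ∧
        ∀ ψ : (Fin N → Fin (Q + 1)) → ℂ, IsFermionic ψ →
          δ * (innerProd ψ (perpPart Ψ ψ)).re ≤ (innerProd ψ (hamiltonian P ψ)).re := by
  obtain ⟨N₀, _, h⟩ := Vale.Agent.P359.plain_final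
  refine ⟨1 / 100, by norm_num, N₀, fun N Q hN hQ => ?_⟩
  obtain ⟨h0, h1⟩ := h N Q hN hQ
  refine ⟨h0, fun P hP => ?_⟩
  obtain ⟨Ψ, a, b, c, d, _, _, e⟩ := h1 P hP
  exact ⟨Ψ, a, b, c, d, e⟩

end Vale.Agent.Results.P359.OperatorGap
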