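import Vale.Agent.P359.Plain2

namespace Vale.Agent.Results.P359.SpectralGap

open LaughlinModel

/-- Let `P N` be the orthogonal projection of `U_Q ⊗ U_Q` onto the component of total spin `Q - 1`
for the Laughlin flux `Q = 3 (N - 1)` (it exists for every `N`).  For all large `N` the lowest
eigenvalue `E_0(N)` of `H_{N,Q}` on the fermionic space is `0` and the gap `E_1(N) - E_0(N)` to the
next eigenvalue, counted with multiplicity, is at least `1/100`; in particular the inferior limit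
of the gaps is positive. -/
theorem result :
    (∀ Q : ℕ, ∃ P, IsSpinProjection Q P) ∧
    ∀ P : (N : ℕ) → Matrix (Fin (3 * (N - 1) + 1) × Fin (3 * (N - 1) + 1))
        (Fin (3 * (N - 1) + 1) × Fin (3 * (N - 1) + 1)) ℂ,
      (∀ N, IsSpinProjection (3 * (N - 1)) (P N)) →
      (∃ N₀ : ℕ, ∀ N : ℕ, N₀ ≤ N →
        energy N (P N) 0 = 0 ∧ 1 / 100 ≤ energy N (P N) 1 - energy N (P N) 0) ∧
      0 < Filter.liminf
        (fun N : ℕ => ((energy N (P N) 1 - energy N (P N) 0 : ℝ) : EReal)) Filter.atTop := by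
  refine ⟨fun Q => ⟨_, Vale.Agent.P359.Plain_isProj Q⟩, fun P hP => ?_⟩
  obtain ⟨N₀, h⟩ := Vale.Agent.P359.plain_gap
  have key : ∀ N : ℕ, N₀ ≤ N →
      energy N (P N) 0 = 0 ∧ 1 / 100 ≤ energy N (P N) 1 - energy N (P N) 0 := by
    intro N hN
    obtain ⟨a, b⟩ := h N _ hN rfl (P N) (hP N)
    exact ⟨a, by rw [a, sub_zero]; exact b⟩
  refine ⟨⟨N₀, key⟩, ?_⟩
  have h1 : (((1 / 100 : ℝ)) : EReal)
      ≤ Filter.liminf
        (fun N : ℕ => ((energy N (P N) 1 - energy N (P N) 0 : ℝ) : EReal)) Filter.atTop := by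
    apply Filter.le_liminf_of_le
    · exact Filter.isCobounded_ge_of_top
    · rw [Filter.eventually_atTop]
      exact ⟨N₀, fun N hN => EReal.coe_le_coe_iff.mpr (key N hN).2⟩
  refine lt_of_lt_of_le ?_ h1
  exact EReal.coe_pos.mpr (by norm_num)

end Vale.Agent.Results.P359.SpectralGap
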