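import Vale.Agent.P359.Plain

namespace Vale.Agent.Results.P359.StrongGap

open LaughlinModel

/-- For all large fluxes `Q` and all particle numbers `N ≥ 4`, every nonzero eigenvalue of
`H_{N,Q}` on the fermionic space is at least `1/100`; and for all large `N`, at the Laughlin flux
`Q = 3 (N - 1)`, the operator inequality `H_{N,Q} ≥ (1/100) (I - P_L)` holds on the fermionic
space, `P_L` being the orthogonal projection onto the span of the Laughlin vector `Ψ`. -/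
theorem result :
    (∀ Q : ℕ, ∃ P, IsSpinProjection Q P) ∧
    (∃ Q₀ : ℕ, ∀ Q N : ℕ, Q₀ ≤ Q → 4 ≤ N → ∀ P, IsSpinProjection Q P →
      ∀ (μ : ℝ) (ψ : (Fin N → Fin (Q + 1)) → ℂ), IsFermionic ψ → (∃ x, ψ x ≠ 0) →
        (∀ x, hamiltonian P ψ x = (μ : ℂ) * ψ x) → μ = 0 ∨ 1 / 100 ≤ μ) ∧
    (∃ N₀ : ℕ, ∀ N Q : ℕ, N₀ ≤ N → Q = 3 * (N - 1) → ∀ P, IsSpinProjection Q P →
      ∃ Ψ : (Fin N → Fin (Q + 1)) → ℂ,
        IsFermionic Ψ ∧ IsLaughlin Ψ ∧ (∃ x, Ψ x ≠ 0) ∧ (∀ x, hamiltonian P Ψ x = 0) ∧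
        ∀ ψ : (Fin N → Fin (Q + 1)) → ℂ, IsFermionic ψ →
          (1 / 100) * (innerProd ψ (perpPart Ψ ψ)).re ≤ (innerProd ψ (hamiltonian P ψ)).re) := by
  refine ⟨fun Q => ⟨_, Vale.Agent.P359.Plain_isProj Q⟩, Vale.Agent.P359.plain_flux, ?_⟩
  obtain ⟨N₀, _, h⟩ := Vale.Agent.P359.plain_final
  refine ⟨N₀, fun N Q hN hQ P hP => ?_⟩
  obtain ⟨_, h1⟩ := h N Q hN hQ
  obtain ⟨Ψ, a, b, c, d, _, _, e⟩ := h1 P hP
  exact ⟨Ψ, a, b, c, d, e⟩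

end Vale.Agent.Results.P359.StrongGap
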