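import Vale.Agent.P359.BridgeM
import Vale.Agent.P359.Final

namespace Vale.Agent.Results.P359.UniformGap

open LaughlinSphere

/-- There are `δ > 0` and `N₀` such that for all `N ≥ N₀`, at the Laughlin flux `Q = 3 (N - 1)`,
`H_{N,Q} ≥ δ (1 - P_L)` on the fermionic space, `P_L` the orthogonal projection onto the span of
the Laughlin vector `Ψ`, which is a nonzero fermionic zero state of `H_{N,Q}`. -/
theorem result : ∃ δ : ℝ, 0 < δ ∧ ∃ N₀ : ℕ, ∀ N : ℕ, N₀ ≤ N →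
    ∃ P : Matrix (Fin (3 * (N - 1) + 1) × Fin (3 * (N - 1) + 1))
        (Fin (3 * (N - 1) + 1) × Fin (3 * (N - 1) + 1)) ℂ,
      IsPairProjection (3 * (N - 1)) P ∧
      ∃ Ψ : (Fin N → Fin (3 * (N - 1) + 1)) → ℂ,
        Fermionic Ψ ∧ polynomialOf Ψ = laughlinPolynomial N ∧ Ψ ≠ 0 ∧
        (hamMatrix P N).mulVec Ψ = 0 ∧
        ∀ ψ : (Fin N → Fin (3 * (N - 1) + 1)) → ℂ, Fermionic ψ →
          δ * ((overlap ψ ψ).re - ‖overlap Ψ ψ‖ ^ 2 / (overlap Ψ Ψ).re)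
            ≤ (overlap ψ ((hamMatrix P N).mulVec ψ)).re := by
  obtain ⟨δ, hδ, N₀, h⟩ := Vale.Agent.P359.final
  refine ⟨δ, hδ, N₀, fun N hN => ?_⟩
  obtain ⟨Ψ, h1, h2, h3, h4, h5⟩ := h N hN
  refine ⟨Vale.Agent.P359.BridgeM_P _, Vale.Agent.P359.BridgeM_isPairProjection _,
    WithLp.ofLp Ψ, h1, h2, ?_, ?_, ?_⟩
  · intro h0
    apply h3
    ext x
    exact congrFun h0 x
  · have h6 := Vale.Agent.P359.BridgeM_ham (3 * (N - 1)) N (WithLp.ofLp Ψ)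
    rw [WithLp.toLp_ofLp, h4] at h6
    exact (congrArg WithLp.ofLp h6).symm
  · intro ψ hψ
    have h6 := h5 (WithLp.toLp 2 ψ) hψ
    have h7 : ‖Ψ‖ ^ 2 = (overlap (WithLp.ofLp Ψ) (WithLp.ofLp Ψ)).re := by
      rw [← Vale.Agent.P359.BridgeM_norm, WithLp.toLp_ofLp]
    have h8 : ‖inner ℂ Ψ (WithLp.toLp 2 ψ)‖ = ‖overlap (WithLp.ofLp Ψ) ψ‖ := by
      rw [Vale.Agent.P359.BridgeM_normC, WithLp.toLp_ofLp]
    rw [h7, h8, Vale.Agent.P359.BridgeM_ham, Vale.Agent.P359.BridgeM_norm,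
      Vale.Agent.P359.BridgeM_inner] at h6
    exact h6

end Vale.Agent.Results.P359.UniformGap
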